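import Vale.Agent.P271.Stmt
import Vale.Agent.P271.BrP
import Vale.Agent.P271.SetC

open scoped Manifold ContDiff
open Vale.Agent.P271.Stmt

theorem Vale.Agent.Results.P271.Fujita.result (n : ℕ) (X : Type) [TopologicalSpace X]
    [T2Space X] [CompactSpace X] [ConnectedSpace X] [ChartedSpace (Fin n → ℂ) X]
    [IsManifold 𝓘(ℂ, Fin n → ℂ) ω X] (L : Cocycle X) (hL : IsLineBundle n L) (hA : Ample n L)
    (m : ℕ) (hm : n + 1 ≤ m) :
    GloballyGenerated n (tensor (canonical n X) (power L m)) := by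
  intro x
  borelize X
  obtain ⟨A, q, i, h⟩ := Vale.Agent.P271.exists_atl hL
  obtain ⟨M, rfl⟩ := Vale.Agent.P271.exists_model A
  obtain ⟨P, hP⟩ := Vale.Agent.P271.exists_pol h hL hA
  obtain ⟨s, hs, hx⟩ := Vale.Agent.P271.exists_section M P hm x
  exact Vale.Agent.P271.section_of_H0 M h hL P.gauge hP m hs hx
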